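import Vale.Agent.P076.R2.H831V.Spec

/-!
# P076 : local constancy of the TT* estimate
-/

open MeasureTheory Complex FourierTransform Filter Topology Set
open scoped ENNReal NNReal

namespace Vale.Agent.P076.R2.H854

open Vale.Agent.P076 Vale.Agent.P076.H791 Vale.Agent.P076.R2.H45 Vale.Agent.P076.R2.H831
open Vale.Agent.P076.R2.H831.V2 Vale.Agent.P076.R2.H831V

variable {n : ℕ}

lemma gam_meas (c : ℝ) : Measurable fun q : E n × ℝ => gam c q.1 q.2 := by
  unfold gam; fun_prop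

/-- the oscillation -/
noncomputable def ee (x : E n) (t : ℝ) (q : E n × ℝ) : ℂ :=
  cexp (((2 * Real.pi * (inner ℝ x q.1 + t * q.2) : ℝ) : ℂ) * I)

lemma norm_ee (x : E n) (t : ℝ) (q : E n × ℝ) : ‖ee x t q‖ = 1 := by
  rw [ee, Complex.norm_exp_ofReal_mul_I]

/-- the Gaussian -/
noncomputable def ga (c : ℝ) (q : E n × ℝ) : ℝ := Real.exp (-(c * (‖q.1‖ ^ 2 + q.2 ^ 2)))

lemma gauss1 (V : Type) [NormedAddCommGroup V] [InnerProductSpace ℝ V] [FiniteDimensional ℝ V]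
    [MeasurableSpace V] [BorelSpace V] (x : V) :
    ∫ v : V, cexp (-(Real.pi : ℂ) * (‖v‖ : ℂ) ^ 2 + 2 * Real.pi * I * (inner ℝ x v : ℝ))
      = cexp (-(Real.pi : ℂ) * (‖x‖ : ℂ) ^ 2) := by
  have hpi : (Real.pi : ℂ) ≠ 0 := by exact_mod_cast Real.pi_ne_zero
  rw [GaussianFourier.integral_cexp_neg_mul_sq_norm_add (V := V) (b := Real.pi)
    (by simpa using Real.pi_pos) (2 * Real.pi * I) x]
  rw [div_self hpi, Complex.one_cpow, one_mul]
  congr 1
  field_simp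
  ring_nf
  rw [Complex.I_sq]
  ring

lemma int1 (V : Type) [NormedAddCommGroup V] [InnerProductSpace ℝ V] [FiniteDimensional ℝ V]
    [MeasurableSpace V] [BorelSpace V] {c : ℝ} (hc : 0 < c) :
    Integrable fun v : V => Real.exp (-(c * ‖v‖ ^ 2)) := by
  have h := (GaussianFourier.integrable_cexp_neg_mul_sq_norm_add (V := V) (b := c)
    (by simpa using hc) 0 0).norm
  refine h.congr (Eventually.of_forall fun x => ?_)
  simp only [zero_mul, add_zero]
  rw [Complex.norm_exp, show (-(c : ℂ) * (‖x‖ : ℂ) ^ 2) = ((-(c * ‖x‖ ^ 2) : ℝ) : ℂ) by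
    push_cast; ring, Complex.ofReal_re]

lemma ga_int {c : ℝ} (hc : 0 < c) : Integrable (ga (n := n) c) := by
  have h := (int1 (E n) hc).mul_prod (int1 ℝ hc)
  refine h.congr (Eventually.of_forall fun q => ?_)
  simp only [ga]
  rw [← Real.exp_add, Real.norm_eq_abs, sq_abs]
  congr 1
  ring

lemma gam_eq (c : ℝ) (q : E n × ℝ) : gam c q.1 q.2 = ENNReal.ofReal (ga c q) := rfl

lemma gam_fin {c : ℝ} (hc : 0 < c) : ∫⁻ q : E n × ℝ, gam c q.1 q.2 < ⊤ := by
  have h := (ga_int (n := n) hc).lintegral_lt_top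
  simpa only [gam_eq] using h

lemma gauss2 (x : E n) (t : ℝ) : ∫ q : E n × ℝ, ((ga Real.pi q : ℝ) : ℂ) * ee x t q
    = ((Real.exp (-(Real.pi * (‖x‖ ^ 2 + t ^ 2))) : ℝ) : ℂ) := by
  have h1 := gauss1 (E n) x
  have h2 := gauss1 ℝ t
  have h3 := integral_prod_mul (μ := (volume : Measure (E n))) (ν := (volume : Measure ℝ))
    (fun v : E n => cexp (-(Real.pi : ℂ) * (‖v‖ : ℂ) ^ 2 + 2 * Real.pi * I * (inner ℝ x v : ℝ)))
    (fun w : ℝ => cexp (-(Real.pi : ℂ) * (‖w‖ : ℂ) ^ 2 + 2 * Real.pi * I * (inner ℝ t w : ℝ)))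
  rw [h1, h2, ← Complex.exp_add] at h3
  have e1 : ∀ q : E n × ℝ, ((ga Real.pi q : ℝ) : ℂ) * ee x t q =
      cexp (-(Real.pi : ℂ) * (‖q.1‖ : ℂ) ^ 2 + 2 * Real.pi * I * (inner ℝ x q.1 : ℝ)) *
      cexp (-(Real.pi : ℂ) * (‖q.2‖ : ℂ) ^ 2 + 2 * Real.pi * I * (inner ℝ t q.2 : ℝ)) := by
    intro q
    have h4 : (‖q.2‖ : ℂ) ^ 2 = ((q.2 ^ 2 : ℝ) : ℂ) := by
      rw [← Complex.ofReal_pow, Real.norm_eq_abs, sq_abs]
    have h5 : inner ℝ t q.2 = t * q.2 := by
      simp [inner, mul_comm]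
    rw [ga, ee, Complex.ofReal_exp, ← Complex.exp_add, ← Complex.exp_add, h4, h5]
    congr 1
    push_cast
    ring
  simp_rw [e1]
  refine h3.trans ?_
  have h4 : (‖t‖ : ℂ) ^ 2 = ((t ^ 2 : ℝ) : ℂ) := by
    rw [← Complex.ofReal_pow, Real.norm_eq_abs, sq_abs]
  rw [h4, Complex.ofReal_exp]
  congr 1
  push_cast
  ring

/-- change of variables -/
lemma cov (c : ℝ) (η : E n) {F : E n × ℝ → ℝ≥0∞} (hF : Measurable F) :
    ∫⁻ q : E n × ℝ, gam c q.1 q.2 * F (η + q.1, ‖η‖ ^ 2 - q.2)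
      = ∫⁻ p : E n × ℝ, gam c (p.1 - η) (‖η‖ ^ 2 - p.2) * F p := by
  have m1 : Measurable fun q : E n × ℝ => gam c q.1 q.2 * F (η + q.1, ‖η‖ ^ 2 - q.2) :=
    (gam_meas c).mul (hF.comp (by fun_prop))
  have m2 : Measurable fun p : E n × ℝ => gam c (p.1 - η) (‖η‖ ^ 2 - p.2) * F p :=
    ((gam_meas c).comp (g := fun q : E n × ℝ => gam c q.1 q.2)
      (f := fun p : E n × ℝ => ((p.1 - η, ‖η‖ ^ 2 - p.2) : E n × ℝ)) (by fun_prop)).mul hF
  rw [Measure.volume_eq_prod, lintegral_prod _ m1.aemeasurable, lintegral_prod _ m2.aemeasurable]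
  have h1 : ∀ v : E n, ∫⁻ w : ℝ, gam c v w * F (η + v, ‖η‖ ^ 2 - w)
      = ∫⁻ μ : ℝ, gam c v (‖η‖ ^ 2 - μ) * F (η + v, μ) := by
    intro v
    have := lintegral_sub_left_eq_self (μ := (volume : Measure ℝ))
      (fun μ : ℝ => gam c v (‖η‖ ^ 2 - μ) * F (η + v, μ)) (‖η‖ ^ 2)
    rw [← this]
    refine lintegral_congr fun w => ?_
    rw [sub_sub_cancel]
  simp_rw [h1]
  have h2 := lintegral_add_left_eq_self (μ := (volume : Measure (E n)))
    (fun ζ : E n => ∫⁻ μ : ℝ, gam c (ζ - η) (‖η‖ ^ 2 - μ) * F (ζ, μ)) η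
  rw [← h2]
  refine lintegral_congr fun v => ?_
  rw [add_sub_cancel_left]

/-- Tonelli -/
lemma ton (c : ℝ) {V : E n → ℝ≥0∞} (hV : Measurable V) {F : E n × ℝ → ℝ≥0∞} (hF : Measurable F) :
    ∫⁻ η, V η * ∫⁻ q : E n × ℝ, gam c q.1 q.2 * F (η + q.1, ‖η‖ ^ 2 - q.2)
      = ∫⁻ p : E n × ℝ, KV c V p.1 p.2 * F p := by
  simp_rw [cov c _ hF]
  have m0 : Measurable fun z : E n × (E n × ℝ) => gam c (z.2.1 - z.1) (‖z.1‖ ^ 2 - z.2.2) :=
    (gam_meas c).comp (g := fun q : E n × ℝ => gam c q.1 q.2)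
      (f := fun z : E n × (E n × ℝ) => ((z.2.1 - z.1, ‖z.1‖ ^ 2 - z.2.2) : E n × ℝ)) (by fun_prop)
  have h1 : ∀ η : E n, V η * ∫⁻ p : E n × ℝ, gam c (p.1 - η) (‖η‖ ^ 2 - p.2) * F p
      = ∫⁻ p : E n × ℝ, V η * (gam c (p.1 - η) (‖η‖ ^ 2 - p.2) * F p) := by
    intro η
    rw [lintegral_const_mul]
    exact (m0.comp (f := fun p : E n × ℝ => ((η, p) : E n × (E n × ℝ))) (by fun_prop)).mul hF
  simp_rw [h1]
  rw [lintegral_lintegral_swap]
  · refine lintegral_congr fun p => ?_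
    unfold KV
    rw [← lintegral_mul_const]
    · refine lintegral_congr fun η => ?_
      rw [mul_assoc]
    · exact hV.mul (m0.comp (f := fun η : E n => ((η, p) : E n × (E n × ℝ))) (by fun_prop))
  · exact ((hV.comp measurable_fst).mul (m0.mul (hF.comp measurable_snd))).aemeasurable

/-- Cauchy-Schwarz -/
lemma cs {α : Type*} [MeasurableSpace α] {μ : Measure α} {g f : α → ℝ≥0∞}
    (hg : AEMeasurable g μ) (hf : AEMeasurable f μ) :
    (∫⁻ a, g a * f a ∂μ) ^ 2 ≤ (∫⁻ a, g a ∂μ) * ∫⁻ a, g a * f a ^ 2 ∂μ := by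
  have h1 := ENNReal.lintegral_mul_le_Lp_mul_Lq μ (p := 2) (q := 2)
    (by rw [Real.holderConjugate_iff]; norm_num)
    (f := fun a => g a ^ (1 / 2 : ℝ)) (g := fun a => g a ^ (1 / 2 : ℝ) * f a)
    (hg.pow_const _) ((hg.pow_const _).mul hf)
  have e1 : ∀ a, ((fun a => g a ^ (1 / 2 : ℝ)) * fun a => g a ^ (1 / 2 : ℝ) * f a) a
      = g a * f a := by
    intro a
    simp only [Pi.mul_apply]
    rw [← mul_assoc, ← ENNReal.rpow_add_of_nonneg _ _ (by norm_num) (by norm_num)]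
    norm_num
  have e2 : ∀ a, (g a ^ (1 / 2 : ℝ)) ^ (2 : ℝ) = g a := fun a => by
    rw [← ENNReal.rpow_mul]; norm_num
  have e3 : ∀ a, (g a ^ (1 / 2 : ℝ) * f a) ^ (2 : ℝ) = g a * f a ^ 2 := fun a => by
    rw [ENNReal.mul_rpow_of_nonneg _ _ (by norm_num), ← ENNReal.rpow_mul]
    norm_num
  simp_rw [e1, e2, e3] at h1
  have h2 := pow_le_pow_left' h1 2
  refine h2.trans (le_of_eq ?_)
  rw [mul_pow, ← ENNReal.rpow_natCast, ← ENNReal.rpow_natCast, ← ENNReal.rpow_mul,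
    ← ENNReal.rpow_mul]
  norm_num

/-- the normalised data -/
noncomputable def HH (A : Set (E n)) (s : E n → ℝ) (h : E n → ℂ) (r : ℕ) : E n → ℂ :=
  A.indicator fun x => ((Real.exp (-(2 * Real.pi * r ^ 2)) *
    Real.exp (Real.pi * (‖x‖ ^ 2 + s x ^ 2)) : ℝ) : ℂ) * h x

/-- the modulated data -/
noncomputable def hq (A : Set (E n)) (s : E n → ℝ) (h : E n → ℂ) (r : ℕ) (q : E n × ℝ)
    (x : E n) : ℂ := HH A s h r x * ee x (s x) q

/-- the space-time transform -/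
noncomputable def NN (A : Set (E n)) (s : E n → ℝ) (h : E n → ℂ) (r : ℕ) (p : E n × ℝ) : ℂ :=
  ∫ x in A, HH A s h r x * ee x (-(s x)) p

section
variable {r : ℕ} {A : Set (E n)} {s : E n → ℝ} {h : E n → ℂ}

lemma meas_HH (a : Adm r A s h) : Measurable (HH A s h r) := by
  have ms := a.ms
  have mh := a.mh
  refine Measurable.indicator ?_ a.mA
  refine Measurable.mul ?_ mh
  refine Complex.measurable_ofReal.comp ?_
  fun_prop

lemma norm_HH (a : Adm r A s h) (x : E n) : ‖HH A s h r x‖ ≤ 1 := by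
  unfold HH
  by_cases hx : x ∈ A
  · rw [indicator_of_mem hx, norm_mul, Complex.norm_real, Real.norm_eq_abs, ← Real.exp_add,
      abs_of_pos (Real.exp_pos _)]
    have h1 : ‖x‖ < r := by
      have := a.sub hx
      rwa [mem_ball_zero_iff] at this
    have h2 := a.bs x
    have h3 : ‖x‖ ^ 2 ≤ (r : ℝ) ^ 2 := pow_le_pow_left₀ (norm_nonneg _) h1.le 2
    have h4 : s x ^ 2 ≤ (r : ℝ) ^ 2 := by
      rw [← sq_abs (s x)]
      exact pow_le_pow_left₀ (abs_nonneg _) h2 2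
    have h5 : Real.exp (-(2 * Real.pi * r ^ 2) + Real.pi * (‖x‖ ^ 2 + s x ^ 2)) ≤ 1 := by
      rw [Real.exp_le_one_iff]
      have := Real.pi_pos
      nlinarith
    exact mul_le_one₀ h5 (norm_nonneg _) (a.bh x)
  · rw [indicator_of_notMem hx]
    simp

lemma meas_ee (ms : Measurable s) :
    Measurable fun z : E n × (E n × ℝ) => ee z.1 (s z.1) z.2 := by
  have h1 : Continuous fun z : (E n × ℝ) × (E n × ℝ) => ee z.1.1 z.1.2 z.2 := by
    unfold ee
    fun_prop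
  have h2 : Measurable fun z : E n × (E n × ℝ) =>
      (((z.1, s z.1), z.2) : (E n × ℝ) × (E n × ℝ)) :=
    (measurable_fst.prodMk (ms.comp measurable_fst)).prodMk measurable_snd
  have h3 := Measurable.comp h1.measurable h2
  simpa only [Function.comp_def] using h3

lemma meas_hq (a : Adm r A s h) :
    Measurable fun z : E n × (E n × ℝ) => hq A s h r z.2 z.1 := by
  unfold hq
  exact ((meas_HH a).comp measurable_fst).mul (meas_ee a.ms)

lemma adm_hq (a : Adm r A s h) (q : E n × ℝ) : Adm r A s (hq A s h r q) where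
  mA := a.mA
  sub := a.sub
  ms := a.ms
  bs := a.bs
  mh := (meas_hq a).comp (f := fun x : E n => ((x, q) : E n × (E n × ℝ))) (by fun_prop)
  bh := fun x => by
    rw [hq, norm_mul, norm_ee, mul_one]
    exact norm_HH a x

lemma meas_NN (a : Adm r A s h) : Measurable (NN A s h r) := by
  have h1 : Measurable fun z : (E n × ℝ) × E n => HH A s h r z.2 * ee z.2 (-(s z.2)) z.1 := by
    refine ((meas_HH a).comp measurable_snd).mul ?_
    have h2 := meas_ee (n := n) (s := fun x => -(s x)) a.ms.neg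
    exact h2.comp (f := fun z : (E n × ℝ) × E n => ((z.2, z.1) : E n × (E n × ℝ))) (by fun_prop)
  exact (h1.stronglyMeasurable.integral_prod_right
    (ν := (volume : Measure (E n)).restrict A)).measurable

lemma NN_eq (q : E n × ℝ) (η : E n) :
    NN A s h r (η + q.1, ‖η‖ ^ 2 - q.2) = Phi A s (hq A s h r q) η := by
  unfold NN Phi
  refine integral_congr_ae (Eventually.of_forall fun x => ?_)
  simp only [hq]
  rw [mul_assoc]
  congr 1
  rw [ee, ee, ph, ← Complex.exp_add]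
  congr 1
  rw [inner_add_right]
  push_cast
  ring

lemma Phi_eq (a : Adm r A s h) (η : E n) : Phi A s h η =
    ((Real.exp (2 * Real.pi * r ^ 2) : ℝ) : ℂ) *
      ∫ q : E n × ℝ, ((ga Real.pi q : ℝ) : ℂ) * Phi A s (hq A s h r q) η := by
  have hfin : IsFiniteMeasure ((volume : Measure (E n)).restrict A) :=
    ⟨by rw [Measure.restrict_apply_univ]; exact a.vol⟩
  have h1 : Phi A s h η = ∫ x in A, ∫ q : E n × ℝ, ((Real.exp (2 * Real.pi * r ^ 2) : ℝ) : ℂ) *
      (((ga Real.pi q : ℝ) : ℂ) * (hq A s h r q x * ph x (s x) 0 η)) := by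
    unfold Phi
    refine setIntegral_congr_fun a.mA fun x hx => ?_
    have e1 : ∀ q : E n × ℝ, ((Real.exp (2 * Real.pi * r ^ 2) : ℝ) : ℂ) *
        (((ga Real.pi q : ℝ) : ℂ) * (hq A s h r q x * ph x (s x) 0 η)) =
        (((ga Real.pi q : ℝ) : ℂ) * ee x (s x) q) * (((Real.exp (2 * Real.pi * r ^ 2) : ℝ) : ℂ) *
          (HH A s h r x * ph x (s x) 0 η)) := by
      intro q
      rw [hq]
      ring
    simp_rw [e1]
    rw [integral_mul_const, gauss2, HH, indicator_of_mem hx]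
    have e2 : Real.exp (-(Real.pi * (‖x‖ ^ 2 + s x ^ 2))) * (Real.exp (2 * Real.pi * r ^ 2) *
        (Real.exp (-(2 * Real.pi * r ^ 2)) * Real.exp (Real.pi * (‖x‖ ^ 2 + s x ^ 2)))) = 1 := by
      rw [← Real.exp_add, ← Real.exp_add, ← Real.exp_add, Real.exp_eq_one_iff]
      ring
    have e3 : ((Real.exp (-(Real.pi * (‖x‖ ^ 2 + s x ^ 2))) : ℝ) : ℂ) *
        (((Real.exp (2 * Real.pi * r ^ 2) : ℝ) : ℂ) *
        ((Real.exp (-(2 * Real.pi * r ^ 2)) * Real.exp (Real.pi * (‖x‖ ^ 2 + s x ^ 2)) : ℝ) : ℂ))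
        = 1 := by
      exact_mod_cast e2
    calc h x * ph x (s x) 0 η = 1 * (h x * ph x (s x) 0 η) := by rw [one_mul]
      _ = _ := by rw [← e3]; ring
  rw [h1, integral_integral_swap, ← integral_const_mul]
  · refine integral_congr_ae (Eventually.of_forall fun q => ?_)
    simp only
    rw [integral_const_mul, integral_const_mul]
    rfl
  · have i1 := (integrable_const (1 : ℝ) (μ := (volume : Measure (E n)).restrict A)).mul_prod
      ((ga_int (n := n) Real.pi_pos).const_mul (Real.exp (2 * Real.pi * r ^ 2)))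
    refine Integrable.mono' i1 ?_ (Eventually.of_forall fun z => ?_)
    · have m1 : Measurable fun z : E n × (E n × ℝ) => ((ga Real.pi z.2 : ℝ) : ℂ) := by
        unfold ga
        refine Complex.measurable_ofReal.comp ?_
        fun_prop
      have m2 : Measurable fun z : E n × (E n × ℝ) => ph z.1 (s z.1) 0 η := by
        have h3 : Measurable fun z : E n × (E n × ℝ) => (((z.1, s z.1), η) : (E n × ℝ) × E n) :=
          (measurable_fst.prodMk (a.ms.comp measurable_fst)).prodMk measurable_const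
        have h4 := Measurable.comp continuous_ph2.measurable h3
        simpa only [Function.comp_def] using h4
      exact ((m1.mul ((meas_hq a).mul m2)).const_mul _).aestronglyMeasurable
    · simp only [Function.uncurry]
      rw [one_mul, norm_mul, norm_mul, Complex.norm_real, Complex.norm_real, Real.norm_eq_abs,
        Real.norm_eq_abs, abs_of_pos (Real.exp_pos _), abs_of_pos (by unfold ga; positivity)]
      have h5 : ‖hq A s h r z.2 z.1 * ph z.1 (s z.1) 0 η‖ ≤ 1 :=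
        norm_kern_le (adm_hq a z.2).bh z.1 η
      have h6 : 0 < ga Real.pi z.2 := by unfold ga; positivity
      gcongr
      exact mul_le_of_le_one_right h6.le h5

lemma Phi_sq_le (a : Adm r A s h) (η : E n) : ‖Phi A s h η‖ₑ ^ 2 ≤
    ENNReal.ofReal (Real.exp (2 * Real.pi * r ^ 2)) ^ 2 *
      ((∫⁻ q : E n × ℝ, gam Real.pi q.1 q.2) *
        ∫⁻ q : E n × ℝ, gam Real.pi q.1 q.2 * ‖NN A s h r (η + q.1, ‖η‖ ^ 2 - q.2)‖ₑ ^ 2) := by
  rw [Phi_eq a η, enorm_mul, mul_pow]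
  have h1 : ‖((Real.exp (2 * Real.pi * r ^ 2) : ℝ) : ℂ)‖ₑ =
      ENNReal.ofReal (Real.exp (2 * Real.pi * r ^ 2)) := by
    rw [← ofReal_norm, Complex.norm_real, Real.norm_eq_abs, abs_of_pos (Real.exp_pos _)]
  rw [h1]
  gcongr
  have m1 : Measurable fun q : E n × ℝ => ‖NN A s h r (η + q.1, ‖η‖ ^ 2 - q.2)‖ₑ :=
    ((meas_NN a).comp (f := fun q : E n × ℝ => ((η + q.1, ‖η‖ ^ 2 - q.2) : E n × ℝ))
      (by fun_prop)).enorm
  refine le_trans ?_ (cs (gam_meas Real.pi).aemeasurable m1.aemeasurable)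
  gcongr
  refine (enorm_integral_le_lintegral_enorm _).trans (le_of_eq ?_)
  refine lintegral_congr fun q => ?_
  rw [enorm_mul, NN_eq, gam_eq]
  congr 1
  rw [← ofReal_norm, Complex.norm_real, Real.norm_eq_abs, abs_of_pos (by unfold ga; positivity)]

lemma measJ (a : Adm r A s h) (c : ℝ) : Measurable fun z : E n × (E n × ℝ) =>
    gam c z.2.1 z.2.2 * ‖NN A s h r (z.1 + z.2.1, ‖z.1‖ ^ 2 - z.2.2)‖ₑ ^ 2 := by
  have h1 : Measurable fun z : E n × (E n × ℝ) => gam c z.2.1 z.2.2 :=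
    (gam_meas c).comp measurable_snd
  have h2 : Measurable fun p : E n × ℝ => ‖NN A s h r p‖ₑ ^ 2 := (meas_NN a).enorm.pow_const 2
  have h3 : Measurable fun z : E n × (E n × ℝ) =>
      ((z.1 + z.2.1, ‖z.1‖ ^ 2 - z.2.2) : E n × ℝ) := by fun_prop
  exact h1.mul (h2.comp h3)

end

theorem stTransfer : StTransfer n := by
  intro r
  have k1 : ∫⁻ q : E n × ℝ, gam Real.pi q.1 q.2 < ⊤ := gam_fin Real.pi_pos
  have k2 : ∫⁻ q : E n × ℝ, gam (Real.pi / 2) q.1 q.2 < ⊤ := gam_fin (by positivity)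
  refine ⟨(ENNReal.ofReal (Real.exp (2 * Real.pi * r ^ 2)) ^ 2 *
    (∫⁻ q : E n × ℝ, gam Real.pi q.1 q.2) *
    (∫⁻ q : E n × ℝ, gam (Real.pi / 2) q.1 q.2)).toNNReal, ?_⟩
  intro V G S c hV hG hT hK A s h a
  rw [ENNReal.coe_toNNReal (ENNReal.mul_ne_top (ENNReal.mul_ne_top
    (ENNReal.pow_ne_top ENNReal.ofReal_ne_top) k1.ne) k2.ne)]
  have mN := meas_NN a
  have mF : Measurable fun p : E n × ℝ => ‖NN A s h r p‖ₑ ^ 2 := mN.enorm.pow_const 2
  have b1 := fun η => Phi_sq_le a η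
  generalize ENNReal.ofReal (Real.exp (2 * Real.pi * r ^ 2)) ^ 2 = M at *
  generalize ∫⁻ q : E n × ℝ, gam Real.pi q.1 q.2 = K1 at *
  have mc : Measurable fun η => c * G η := hG.const_mul c
  have mJ := measJ a (Real.pi / 2)
  calc ∫⁻ η, V η * ‖Phi A s h η‖ₑ ^ 2
      ≤ ∫⁻ η, M * K1 * (V η * ∫⁻ q : E n × ℝ, gam Real.pi q.1 q.2 *
          ‖NN A s h r (η + q.1, ‖η‖ ^ 2 - q.2)‖ₑ ^ 2) := by
        refine lintegral_mono fun η => ?_
        refine (mul_le_mul_right (b1 η) (V η)).trans (le_of_eq ?_)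
        ring
    _ ≤ M * K1 * ∫⁻ η, (V η * ∫⁻ q : E n × ℝ, gam Real.pi q.1 q.2 *
          ‖NN A s h r (η + q.1, ‖η‖ ^ 2 - q.2)‖ₑ ^ 2) := by
        rw [lintegral_const_mul]
        refine hV.mul ?_
        exact (measJ a Real.pi).lintegral_prod_right'
    _ = M * K1 * ∫⁻ p : E n × ℝ, KV Real.pi V p.1 p.2 * ‖NN A s h r p‖ₑ ^ 2 := by
        rw [ton Real.pi hV mF]
    _ ≤ M * K1 * ∫⁻ p : E n × ℝ, KV (Real.pi / 2) (fun η => c * G η) p.1 p.2 *
          ‖NN A s h r p‖ₑ ^ 2 := by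
        gcongr with p
        refine (hK p.1 p.2).trans (le_of_eq ?_)
        unfold KV
        rw [← lintegral_const_mul]
        · refine lintegral_congr fun η => ?_
          rw [mul_assoc]
        · refine hG.mul ?_
          exact (gam_meas (Real.pi / 2)).comp (g := fun q : E n × ℝ => gam (Real.pi / 2) q.1 q.2)
            (f := fun η : E n => ((p.1 - η, ‖η‖ ^ 2 - p.2) : E n × ℝ)) (by fun_prop)
    _ = M * K1 * ∫⁻ η, (c * G η) * ∫⁻ q : E n × ℝ, gam (Real.pi / 2) q.1 q.2 *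
          ‖NN A s h r (η + q.1, ‖η‖ ^ 2 - q.2)‖ₑ ^ 2 := by
        rw [ton (Real.pi / 2) mc mF]
    _ = M * K1 * ∫⁻ η, ∫⁻ q : E n × ℝ, (c * G η) * (gam (Real.pi / 2) q.1 q.2 *
          ‖NN A s h r (η + q.1, ‖η‖ ^ 2 - q.2)‖ₑ ^ 2) := by
        congr 1
        refine lintegral_congr fun η => ?_
        rw [lintegral_const_mul]
        exact mJ.comp (f := fun q : E n × ℝ => ((η, q) : E n × (E n × ℝ))) (by fun_prop)
    _ = M * K1 * ∫⁻ q : E n × ℝ, ∫⁻ η, (c * G η) * (gam (Real.pi / 2) q.1 q.2 *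
          ‖NN A s h r (η + q.1, ‖η‖ ^ 2 - q.2)‖ₑ ^ 2) := by
        rw [lintegral_lintegral_swap]
        exact ((mc.comp measurable_fst).mul mJ).aemeasurable
    _ ≤ M * K1 * ∫⁻ q : E n × ℝ, gam (Real.pi / 2) q.1 q.2 * (c * (S * volume A)) := by
        gcongr with q
        have e1 : ∀ η, (c * G η) * (gam (Real.pi / 2) q.1 q.2 *
            ‖NN A s h r (η + q.1, ‖η‖ ^ 2 - q.2)‖ₑ ^ 2) = (gam (Real.pi / 2) q.1 q.2 * c) *
              (G η * ‖Phi A s (hq A s h r q) η‖ₑ ^ 2) := by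
          intro η
          rw [NN_eq]
          ring
        simp_rw [e1]
        rw [lintegral_const_mul, mul_assoc]
        · gcongr
          exact hT A s _ (adm_hq a q)
        · exact hG.mul ((measurable_Phi (adm_hq a q).ms (adm_hq a q).mh).enorm.pow_const 2)
    _ = M * K1 * ((∫⁻ q : E n × ℝ, gam (Real.pi / 2) q.1 q.2) * (c * (S * volume A))) := by
        rw [lintegral_mul_const]
        exact gam_meas _
    _ = _ := by ring

end Vale.Agent.P076.R2.H854
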